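import Vale.Agent.Lib.P141.Digits

namespace Vale.Agent.Lib.P141

open MeasureTheory Filter Topology SchwartzMap
open scoped ENNReal NNReal

theorem card_rpow_le (S D : Finset ℤ) (k : ℕ) (h : S.card ≤ D.card ^ k) {p : ℝ} (hp : 0 < p) :
    (S.card : ℝ) ^ (1 / p) ≤ ((D.card : ℝ) ^ (1 / p)) ^ k := by
  have h' : (S.card : ℝ) ≤ (D.card : ℝ) ^ k := by exact_mod_cast h
  calc (S.card : ℝ) ^ (1 / p) ≤ ((D.card : ℝ) ^ k) ^ (1 / p) :=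
        Real.rpow_le_rpow (by positivity) h' (by positivity)
    _ = ((D.card : ℝ) ^ (1 / p)) ^ k := (Real.rpow_pow_comm (by positivity) _ _).symm

theorem lhs_eq (n k : ℕ) (r : ℝ) :
    (((n ^ k : ℕ) : ℝ) / 16) ^ (1 / r) = ((n : ℝ) ^ (1 / r)) ^ k / (16 : ℝ) ^ (1 / r) := by
  rw [Real.div_rpow (by positivity) (by norm_num), Nat.cast_pow,
    Real.rpow_pow_comm (by positivity)]

theorem exists_sets (b : ℤ) (hb : 2 ≤ b) (X₀ D₁ D₂ D₃ : Finset ℤ) (M : ℤ)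
    (hM₁ : ∀ d ∈ D₁, |d| ≤ M) (hM₂ : ∀ d ∈ D₂, |d| ≤ M) (hM0 : 0 ≤ M)
    (hcov : ∀ x ∈ X₀, ∃ t : ℤ, x - t ∈ D₁ ∧ x - 2 * t ∈ D₂ ∧ x - 3 * t ∈ D₃) (k : ℕ) :
    ∃ S₁ S₂ S₃ : Finset ℤ, S₁.card ≤ D₁.card ^ k ∧ S₂.card ≤ D₂.card ^ k ∧
      S₃.card ≤ D₃.card ^ k ∧
      (∀ s₁ ∈ S₁, ∀ s₂ ∈ S₂, (1 : ℝ) ≤ (s₁ : ℝ) - s₂ ∧
        (s₁ : ℝ) - s₂ ≤ 4 * (M : ℝ) * (b : ℝ) ^ k + 1) ∧
      (∀ x ∈ dig b X₀ k, ∃ t : ℤ, x - t ∈ S₁ ∧ x - 2 * t ∈ S₂ ∧ x - 3 * t ∈ S₃) := by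
  have hbk : (1 : ℤ) ≤ b ^ k := one_le_pow₀ (by linarith)
  refine ⟨(dig b D₁ k).image (fun a => a - (2 * M * b ^ k + 1)),
    (dig b D₂ k).image (fun a => a - 2 * (2 * M * b ^ k + 1)),
    (dig b D₃ k).image (fun a => a - 3 * (2 * M * b ^ k + 1)),
    Finset.card_image_le.trans (card_dig_le b D₁ k),
    Finset.card_image_le.trans (card_dig_le b D₂ k),
    Finset.card_image_le.trans (card_dig_le b D₃ k), ?_, ?_⟩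
  · intro s₁ h₁ s₂ h₂
    simp only [Finset.mem_image] at h₁ h₂
    obtain ⟨a₁, ha₁, rfl⟩ := h₁
    obtain ⟨a₂, ha₂, rfl⟩ := h₂
    have b₁ := abs_le_of_mem_dig b hb D₁ M hM₁ k a₁ ha₁
    have b₂ := abs_le_of_mem_dig b hb D₂ M hM₂ k a₂ ha₂
    rw [abs_le] at b₁ b₂
    have i1 : (1 : ℤ) ≤ (a₁ - (2 * M * b ^ k + 1)) - (a₂ - 2 * (2 * M * b ^ k + 1)) := by
      nlinarith [b₁.1, b₂.2]
    have i2 : (a₁ - (2 * M * b ^ k + 1)) - (a₂ - 2 * (2 * M * b ^ k + 1))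
        ≤ 4 * M * b ^ k + 1 := by
      nlinarith [b₁.2, b₂.1]
    constructor
    · exact_mod_cast i1
    · exact_mod_cast i2
  · intro x hx
    obtain ⟨t, a1, a2, a3⟩ := cover_dig b X₀ D₁ D₂ D₃ hcov k x hx
    refine ⟨t + (2 * M * b ^ k + 1), ?_, ?_, ?_⟩
    · simp only [Finset.mem_image]; exact ⟨_, a1, by ring⟩
    · simp only [Finset.mem_image]; exact ⟨_, a2, by ring⟩
    · simp only [Finset.mem_image]; exact ⟨_, a3, by ring⟩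

theorem arith_step {A16 Ak L c e₁ e₂ e₃ s₁ s₂ s₃ m bk : ℝ} (h16 : 0 < A16) (hL : 0 ≤ L)
    (hc : 0 ≤ c) (hs₁ : 0 ≤ s₁) (hs₂ : 0 ≤ s₂) (hs₃ : 0 ≤ s₃)
    (h₁ : s₁ ≤ e₁) (h₂ : s₂ ≤ e₂) (h₃ : s₃ ≤ e₃)
    (htr : 1 / (16 * (L + 1)) * (Ak / A16) ≤ c * s₁ * s₂ * s₃)
    (hLm : L + 1 ≤ m * bk) :
    Ak ≤ (A16 * (16 * m) * c) * (bk * e₁ * e₂ * e₃) := by
  have he₁ : 0 ≤ e₁ := hs₁.trans h₁
  have he₂ : 0 ≤ e₂ := hs₂.trans h₂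
  have he₃ : 0 ≤ e₃ := hs₃.trans h₃
  have hrhs : c * s₁ * s₂ * s₃ ≤ c * e₁ * e₂ * e₃ := by gcongr
  have h2 := htr.trans hrhs
  have hLp : 0 < 16 * (L + 1) := by positivity
  have e : 1 / (16 * (L + 1)) * (Ak / A16) = Ak / (A16 * (16 * (L + 1))) := by
    field_simp
  rw [e, div_le_iff₀ (by positivity)] at h2
  calc Ak ≤ c * e₁ * e₂ * e₃ * (A16 * (16 * (L + 1))) := h2
    _ ≤ c * e₁ * e₂ * e₃ * (A16 * (16 * (m * bk))) := by gcongr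
    _ = _ := by ring

/-- **Covering criterion.** A digit covering system in base `b` forces unboundedness of the
trilinear Hilbert transform at all exponents satisfying a counting inequality. -/
theorem not_boundedAt_of_covering (b : ℤ) (hb : 2 ≤ b) (X₀ D₁ D₂ D₃ : Finset ℤ)
    (hinj : ∀ x ∈ X₀, ∀ y ∈ X₀, b ∣ x - y → x = y)
    (hcov : ∀ x ∈ X₀, ∃ t : ℤ, x - t ∈ D₁ ∧ x - 2 * t ∈ D₂ ∧ x - 3 * t ∈ D₃)
    {p₁ p₂ p₃ r : ℝ} (hp₁ : 0 < p₁) (hp₂ : 0 < p₂) (hp₃ : 0 < p₃) (hr : 0 < r)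
    (hineq : (b : ℝ) * (D₁.card : ℝ) ^ (1 / p₁) * (D₂.card : ℝ) ^ (1 / p₂)
      * (D₃.card : ℝ) ^ (1 / p₃) < (X₀.card : ℝ) ^ (1 / r)) :
    ¬ BoundedAt (ENNReal.ofReal p₁) (ENNReal.ofReal p₂) (ENNReal.ofReal p₃)
      (ENNReal.ofReal r) := by
  rintro ⟨C, hC⟩
  obtain ⟨M, hM₁, hM₂, hM0⟩ : ∃ M : ℤ, (∀ d ∈ D₁, |d| ≤ M) ∧ (∀ d ∈ D₂, |d| ≤ M) ∧ 0 ≤ M := by
    refine ⟨∑ d ∈ D₁ ∪ D₂, |d|, fun d hd => ?_, fun d hd => ?_,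
      Finset.sum_nonneg fun _ _ => abs_nonneg _⟩
    · exact Finset.single_le_sum (f := fun d : ℤ => |d|) (fun _ _ => abs_nonneg _)
        (Finset.mem_union_left _ hd)
    · exact Finset.single_le_sum (f := fun d : ℤ => |d|) (fun _ _ => abs_nonneg _)
        (Finset.mem_union_right _ hd)
  have hbR : (2 : ℝ) ≤ (b : ℝ) := by exact_mod_cast hb
  have hMR : (0 : ℝ) ≤ (M : ℝ) := by exact_mod_cast hM0
  generalize hA : (X₀.card : ℝ) ^ (1 / r) = A at hineq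
  generalize hB : (b : ℝ) * (D₁.card : ℝ) ^ (1 / p₁) * (D₂.card : ℝ) ^ (1 / p₂)
      * (D₃.card : ℝ) ^ (1 / p₃) = B at hineq
  have hB0 : 0 ≤ B := by rw [← hB]; positivity
  have key : ∀ k : ℕ, A ^ k ≤ ((16 : ℝ) ^ (1 / r) * (16 * (4 * M + 2)) * C) * B ^ k := by
    intro k
    obtain ⟨S₁, S₂, S₃, c₁, c₂, c₃, hsep, hcov'⟩ :=
      exists_sets b hb X₀ D₁ D₂ D₃ M hM₁ hM₂ hM0 hcov k
    have hbkR : (1 : ℝ) ≤ (b : ℝ) ^ k := one_le_pow₀ (by linarith)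
    have hL0 : (0 : ℝ) ≤ 4 * (M : ℝ) * (b : ℝ) ^ k + 1 := by positivity
    have htr := transfer hp₁ hp₂ hp₃ hr hC (dig b X₀ k) hL0 hsep hcov'
    rw [card_dig_eq b (by linarith) X₀ hinj k, lhs_eq, hA] at htr
    have := arith_step (m := 4 * M + 2) (bk := (b : ℝ) ^ k) (by positivity) hL0 C.coe_nonneg
      (by positivity) (by positivity) (by positivity)
      (card_rpow_le S₁ D₁ k c₁ hp₁) (card_rpow_le S₂ D₂ k c₂ hp₂) (card_rpow_le S₃ D₃ k c₃ hp₃)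
      htr (by nlinarith)
    rw [← hB, mul_pow, mul_pow, mul_pow]
    exact this
  have hApos : 0 < A := lt_of_le_of_lt hB0 hineq
  rcases hB0.eq_or_lt with h0 | hpos
  · have := key 1
    rw [← h0] at this
    simp at this
    linarith
  · have h1 : 1 < A / B := (one_lt_div hpos).2 hineq
    obtain ⟨n, hn⟩ := pow_unbounded_of_one_lt ((16 : ℝ) ^ (1 / r) * (16 * (4 * M + 2)) * C) h1
    have := key n
    rw [div_pow, lt_div_iff₀ (by positivity)] at hn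
    linarith

end Vale.Agent.Lib.P141
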