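import Mathlib

namespace Vale.Agent.Lib.P141

open MeasureTheory Filter Topology SchwartzMap
open scoped ENNReal NNReal

/-- The truncated trilinear Hilbert transform with slopes `1, 2, 3`. -/
noncomputable def truncT (f₁ f₂ f₃ : 𝓢(ℝ, ℂ)) (ε R x : ℝ) : ℂ :=
  ∫ t in {t : ℝ | ε < |t| ∧ |t| < R}, f₁ (x - t) * f₂ (x - 2 * t) * f₃ (x - 3 * t) / (t : ℂ)

/-- The trilinear Hilbert transform: the principal value, i.e. the limit of the truncations as
`ε → 0+` and `R → ∞`. -/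
noncomputable def triHT (f₁ f₂ f₃ : 𝓢(ℝ, ℂ)) (x : ℝ) : ℂ :=
  limUnder ((𝓝[>] (0 : ℝ)) ×ˢ (atTop : Filter ℝ)) (fun P : ℝ × ℝ => truncT f₁ f₂ f₃ P.1 P.2 x)

/-- `T` is bounded at the exponents `(p₁, p₂, p₃, r)`. -/
def BoundedAt (p₁ p₂ p₃ r : ℝ≥0∞) : Prop :=
  ∃ C : ℝ≥0, ∀ f₁ f₂ f₃ : 𝓢(ℝ, ℂ),
    eLpNorm (triHT f₁ f₂ f₃) r volume ≤
      C * eLpNorm f₁ p₁ volume * eLpNorm f₂ p₂ volume * eLpNorm f₃ p₃ volume

/-- The fixed bump: equal to `1` on `[-1/8, 1/8]`, supported in `(-1/4, 1/4)`. -/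
noncomputable def bump : ContDiffBump (0 : ℝ) := ⟨1 / 8, 1 / 4, by norm_num, by norm_num⟩

/-- Sum of integer translates of the bump. -/
noncomputable def F (S : Finset ℤ) (y : ℝ) : ℝ := ∑ s ∈ S, bump (y - s)

theorem F_nonneg (S : Finset ℤ) (y : ℝ) : 0 ≤ F S y :=
  Finset.sum_nonneg fun _ _ => bump.nonneg

theorem bump_eq_zero {z : ℝ} (hz : 1 / 4 ≤ |z|) : bump z = 0 := by
  apply bump.zero_of_le_dist
  simpa [bump, Real.dist_eq] using hz

theorem bump_eq_one {z : ℝ} (hz : |z| ≤ 1 / 8) : bump z = 1 := by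
  apply bump.one_of_mem_closedBall
  simpa [bump, Real.dist_eq, Metric.mem_closedBall] using hz

theorem exists_of_F_ne_zero {S : Finset ℤ} {y : ℝ} (h : F S y ≠ 0) :
    ∃ s ∈ S, |y - s| < 1 / 4 := by
  by_contra hcon
  push Not at hcon
  exact h (Finset.sum_eq_zero fun s hs => bump_eq_zero (hcon s hs))

theorem F_le_one (S : Finset ℤ) (y : ℝ) : F S y ≤ 1 := by
  by_cases h : F S y = 0
  · rw [h]; exact zero_le_one
  obtain ⟨s₀, hs₀, hy⟩ := exists_of_F_ne_zero h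
  have : F S y = bump (y - s₀) := by
    refine Finset.sum_eq_single s₀ ?_ (fun h => absurd hs₀ h)
    intro s _ hne
    apply bump_eq_zero
    have h1 : (1 : ℝ) ≤ |(s : ℝ) - s₀| := by
      have : (1 : ℤ) ≤ |s - s₀| := Int.one_le_abs (sub_ne_zero.2 hne)
      exact_mod_cast this
    have h2 : |(s : ℝ) - s₀| ≤ |y - s₀| + |y - s| := by
      have : (s : ℝ) - s₀ = (y - s₀) - (y - s) := by ring
      rw [this]; exact abs_sub _ _
    linarith
  rw [this]; exact bump.le_one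

theorem one_le_F {S : Finset ℤ} {s : ℤ} (hs : s ∈ S) {y : ℝ} (hy : |y - s| ≤ 1 / 8) :
    1 ≤ F S y := by
  have h1 : bump (y - s) ≤ F S y :=
    Finset.single_le_sum (f := fun s : ℤ => bump (y - s)) (fun _ _ => bump.nonneg) hs
  rwa [bump_eq_one hy] at h1

theorem F_contDiff (S : Finset ℤ) : ContDiff ℝ ((⊤ : ℕ∞) : WithTop ℕ∞) (fun y : ℝ => ((F S y : ℝ) : ℂ)) := by
  have h1 : ContDiff ℝ ((⊤ : ℕ∞) : WithTop ℕ∞) (F S) := by
    unfold F
    exact ContDiff.sum fun s _ => bump.contDiff.comp (contDiff_id.sub contDiff_const)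
  exact Complex.ofRealCLM.contDiff.comp h1

theorem F_hasCompactSupport (S : Finset ℤ) :
    HasCompactSupport (fun y : ℝ => ((F S y : ℝ) : ℂ)) := by
  have hK : IsCompact (⋃ s ∈ S, Metric.closedBall ((s : ℤ) : ℝ) (1 / 4)) :=
    S.finite_toSet.isCompact_biUnion fun s _ => isCompact_closedBall _ _
  refine HasCompactSupport.of_support_subset_isCompact hK ?_
  intro y hy
  have hy' : F S y ≠ 0 := by
    intro h
    apply hy
    simp [h]
  obtain ⟨s, hs, hys⟩ := exists_of_F_ne_zero hy'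
  simp only [Set.mem_iUnion]
  exact ⟨s, hs, by rw [Metric.mem_closedBall, Real.dist_eq]; exact hys.le⟩

/-- The Schwartz function `∑_{s ∈ S} bump(· - s)`. -/
noncomputable def bumpSum (S : Finset ℤ) : 𝓢(ℝ, ℂ) :=
  (F_hasCompactSupport S).toSchwartzMap (F_contDiff S)

@[simp] theorem bumpSum_apply (S : Finset ℤ) (y : ℝ) : bumpSum S y = ((F S y : ℝ) : ℂ) := rfl

end Vale.Agent.Lib.P141
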