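import Vale.Agent.Lib.P141.Transfer

namespace Vale.Agent.Lib.P141

open MeasureTheory Filter Topology SchwartzMap
open scoped ENNReal NNReal

/-- Integers with `k` digits in base `b`, all digits taken from `D`. -/
def dig (b : ℤ) (D : Finset ℤ) : ℕ → Finset ℤ
  | 0 => {0}
  | (k + 1) => (D ×ˢ dig b D k).image (fun P => P.1 + b * P.2)

theorem card_dig_le (b : ℤ) (D : Finset ℤ) (k : ℕ) : (dig b D k).card ≤ D.card ^ k := by
  induction k with
  | zero => simp [dig]
  | succ k ih =>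
    calc (dig b D (k + 1)).card ≤ (D ×ˢ dig b D k).card := Finset.card_image_le
      _ = D.card * (dig b D k).card := Finset.card_product _ _
      _ ≤ D.card * D.card ^ k := Nat.mul_le_mul_left _ ih
      _ = D.card ^ (k + 1) := by ring

theorem card_dig_eq (b : ℤ) (hb : b ≠ 0) (D : Finset ℤ)
    (hinj : ∀ x ∈ D, ∀ y ∈ D, b ∣ x - y → x = y) (k : ℕ) : (dig b D k).card = D.card ^ k := by
  induction k with
  | zero => simp [dig]
  | succ k ih =>
    have : (dig b D (k + 1)).card = (D ×ˢ dig b D k).card := by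
      apply Finset.card_image_of_injOn
      rintro ⟨d, a⟩ h ⟨d', a'⟩ h' e
      simp only [Finset.coe_product, Set.mem_prod, Finset.mem_coe] at h h'
      simp only at e
      have hd : d = d' := by
        apply hinj d h.1 d' h'.1
        exact ⟨a' - a, by linarith⟩
      subst hd
      have : b * a = b * a' := by linarith
      rw [mul_left_cancel₀ hb this]
    rw [this, Finset.card_product, ih]; ring

theorem abs_le_of_mem_dig (b : ℤ) (hb : 2 ≤ b) (D : Finset ℤ) (M : ℤ) (hM : ∀ d ∈ D, |d| ≤ M)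
    (k : ℕ) : ∀ a ∈ dig b D k, |a| ≤ M * (b ^ k - 1) := by
  induction k with
  | zero => intro a ha; simp [dig] at ha; simp [ha]
  | succ k ih =>
    intro a ha
    simp only [dig, Finset.mem_image, Finset.mem_product] at ha
    obtain ⟨⟨d, a'⟩, ⟨hd, ha'⟩, rfl⟩ := ha
    have h1 := hM d hd
    have h2 := ih a' ha'
    have hM0 : 0 ≤ M := (abs_nonneg d).trans h1
    have hb0 : 0 ≤ b := by linarith
    calc |d + b * a'| ≤ |d| + |b * a'| := abs_add_le _ _
      _ = |d| + b * |a'| := by rw [abs_mul, abs_of_nonneg hb0]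
      _ ≤ M + b * (M * (b ^ k - 1)) := by gcongr
      _ = M * (b ^ (k + 1) - 1) - M * (b - 2) := by ring
      _ ≤ M * (b ^ (k + 1) - 1) := by nlinarith

theorem cover_dig (b : ℤ) (X₀ D₁ D₂ D₃ : Finset ℤ)
    (hcov : ∀ x ∈ X₀, ∃ t : ℤ, x - t ∈ D₁ ∧ x - 2 * t ∈ D₂ ∧ x - 3 * t ∈ D₃) (k : ℕ) :
    ∀ x ∈ dig b X₀ k, ∃ t : ℤ,
      x - t ∈ dig b D₁ k ∧ x - 2 * t ∈ dig b D₂ k ∧ x - 3 * t ∈ dig b D₃ k := by
  induction k with
  | zero => intro x hx; simp [dig] at hx; exact ⟨0, by simp [dig, hx]⟩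
  | succ k ih =>
    intro x hx
    simp only [dig, Finset.mem_image, Finset.mem_product] at hx
    obtain ⟨⟨x₀, x'⟩, ⟨hx₀, hx'⟩, rfl⟩ := hx
    obtain ⟨t₀, a1, a2, a3⟩ := hcov x₀ hx₀
    obtain ⟨t', b1, b2, b3⟩ := ih x' hx'
    refine ⟨t₀ + b * t', ?_, ?_, ?_⟩
    · simp only [dig, Finset.mem_image, Finset.mem_product]
      exact ⟨(x₀ - t₀, x' - t'), ⟨a1, b1⟩, by ring⟩
    · simp only [dig, Finset.mem_image, Finset.mem_product]
      exact ⟨(x₀ - 2 * t₀, x' - 2 * t'), ⟨a2, b2⟩, by ring⟩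
    · simp only [dig, Finset.mem_image, Finset.mem_product]
      exact ⟨(x₀ - 3 * t₀, x' - 3 * t'), ⟨a3, b3⟩, by ring⟩

end Vale.Agent.Lib.P141
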