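import Vale.Agent.Lib.P141.Criterion

namespace Vale.Agent.Lib.P141

open scoped ENNReal NNReal

/-- Holder tuples in the sense of the problem: `1 < p₁, p₂, p₃ ≤ ∞`, `0 < r < ∞` and
`1/r = 1/p₁ + 1/p₂ + 1/p₃`. -/
def IsHolderTuple (p₁ p₂ p₃ r : ℝ≥0∞) : Prop :=
  1 < p₁ ∧ 1 < p₂ ∧ 1 < p₃ ∧ 0 < r ∧ r < ∞ ∧ r⁻¹ = p₁⁻¹ + p₂⁻¹ + p₃⁻¹

theorem toReal_inv_lt_one {p : ℝ≥0∞} (h : 1 < p) : (p.toReal)⁻¹ < 1 := by
  by_cases hp : p = ∞
  · simp [hp]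
  · have : 1 < p.toReal := by
      have := (ENNReal.toReal_lt_toReal ENNReal.one_ne_top hp).2 h
      simpa using this
    exact inv_lt_one_of_one_lt₀ this

theorem toReal_inv_nonneg (p : ℝ≥0∞) : 0 ≤ (p.toReal)⁻¹ := by positivity

/-- A Holder tuple with `r ≤ 1/2` has all exponents finite; we extract the real exponents. -/
theorem IsHolderTuple.real_of_le_half {p₁ p₂ p₃ r : ℝ≥0∞} (h : IsHolderTuple p₁ p₂ p₃ r)
    (hr : r.toReal ≤ 1 / 2) :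
    1 < p₁.toReal ∧ 1 < p₂.toReal ∧ 1 < p₃.toReal ∧ 0 < r.toReal ∧
      1 / r.toReal = 1 / p₁.toReal + 1 / p₂.toReal + 1 / p₃.toReal ∧
      p₁ = ENNReal.ofReal p₁.toReal ∧ p₂ = ENNReal.ofReal p₂.toReal ∧
      p₃ = ENNReal.ofReal p₃.toReal ∧ r = ENNReal.ofReal r.toReal := by
  obtain ⟨h₁, h₂, h₃, hr0, hrt, hH⟩ := h
  have hR : 0 < r.toReal := ENNReal.toReal_pos hr0.ne' hrt.ne
  have fin : ∀ {p : ℝ≥0∞}, 1 < p → p⁻¹ ≠ ∞ := by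
    intro p hp
    rw [Ne, ENNReal.inv_eq_top]
    exact (lt_trans zero_lt_one hp).ne'
  have hsum : (r.toReal)⁻¹ = (p₁.toReal)⁻¹ + (p₂.toReal)⁻¹ + (p₃.toReal)⁻¹ := by
    have := congrArg ENNReal.toReal hH
    rw [ENNReal.toReal_add (ENNReal.add_ne_top.2 ⟨fin h₁, fin h₂⟩) (fin h₃),
      ENNReal.toReal_add (fin h₁) (fin h₂)] at this
    simpa using this
  have hge : 2 ≤ (r.toReal)⁻¹ := by
    rw [le_inv_comm₀ (by norm_num) hR]; linarith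
  have l₁ := toReal_inv_lt_one h₁
  have l₂ := toReal_inv_lt_one h₂
  have l₃ := toReal_inv_lt_one h₃
  have n₁ := toReal_inv_nonneg p₁
  have n₂ := toReal_inv_nonneg p₂
  have n₃ := toReal_inv_nonneg p₃
  have key : ∀ {p : ℝ≥0∞}, 1 < p → 0 < (p.toReal)⁻¹ → 1 < p.toReal ∧ p = ENNReal.ofReal p.toReal := by
    intro p hp hpos
    have hne : p ≠ ∞ := by
      rintro rfl
      simp at hpos
    refine ⟨?_, (ENNReal.ofReal_toReal hne).symm⟩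
    have := (ENNReal.toReal_lt_toReal ENNReal.one_ne_top hne).2 hp
    simpa using this
  obtain ⟨a₁, b₁⟩ := key h₁ (by linarith)
  obtain ⟨a₂, b₂⟩ := key h₂ (by linarith)
  obtain ⟨a₃, b₃⟩ := key h₃ (by linarith)
  refine ⟨a₁, a₂, a₃, hR, ?_, b₁, b₂, b₃, (ENNReal.ofReal_toReal hrt.ne).symm⟩
  simpa [one_div] using hsum

end Vale.Agent.Lib.P141
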