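import Vale.Agent.Lib.P141.Defs

namespace Vale.Agent.Lib.P141

open MeasureTheory Filter Topology SchwartzMap
open scoped ENNReal NNReal

theorem F_continuous (S : Finset ℤ) : Continuous (F S) := by
  unfold F
  exact continuous_finsetSum _ fun s _ => bump.continuous.comp (by fun_prop)

theorem eLpNorm_bumpSum_le (S : Finset ℤ) {p : ℝ} (hp : 0 < p) :
    eLpNorm (bumpSum S) (ENNReal.ofReal p) volume ≤ ENNReal.ofReal ((S.card : ℝ) ^ (1 / p)) := by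
  set E : Set ℝ := ⋃ s ∈ S, Metric.ball ((s : ℤ) : ℝ) (1 / 4) with hEdef
  have hE : MeasurableSet E := Finset.measurableSet_biUnion _ (fun s _ => measurableSet_ball)
  have h1 : ∀ y, ‖bumpSum S y‖ ≤ ‖E.indicator (fun _ => (1 : ℝ)) y‖ := by
    intro y
    rw [bumpSum_apply, Complex.norm_real, Real.norm_of_nonneg (F_nonneg S y)]
    by_cases h : F S y = 0
    · rw [h]; exact norm_nonneg _
    · obtain ⟨s, hs, hys⟩ := exists_of_F_ne_zero h
      have hyE : y ∈ E := by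
        simp only [hEdef, Set.mem_iUnion]
        exact ⟨s, hs, by rw [Metric.mem_ball, Real.dist_eq]; exact hys⟩
      rw [Set.indicator_of_mem hyE, norm_one]
      exact F_le_one S y
  have hp0 : ENNReal.ofReal p ≠ 0 := by
    simpa using hp
  have hvol : volume E ≤ (S.card : ℝ≥0∞) := by
    calc volume E ≤ ∑ s ∈ S, volume (Metric.ball ((s : ℤ) : ℝ) (1 / 4)) :=
          measure_biUnion_finset_le _ _
      _ ≤ ∑ s ∈ S, 1 := by
          refine Finset.sum_le_sum fun s _ => ?_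
          rw [Real.volume_ball]
          rw [← ENNReal.ofReal_one]
          exact ENNReal.ofReal_le_ofReal (by norm_num)
      _ = (S.card : ℝ≥0∞) := by simp
  calc eLpNorm (bumpSum S) (ENNReal.ofReal p) volume
      ≤ eLpNorm (E.indicator (fun _ => (1 : ℝ))) (ENNReal.ofReal p) volume := eLpNorm_mono h1
    _ = ‖(1 : ℝ)‖ₑ * volume E ^ (1 / (ENNReal.ofReal p).toReal) :=
        eLpNorm_indicator_const hE hp0 ENNReal.ofReal_ne_top
    _ = volume E ^ (1 / p) := by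
        rw [ENNReal.toReal_ofReal hp.le]; simp
    _ ≤ (S.card : ℝ≥0∞) ^ (1 / p) := ENNReal.rpow_le_rpow hvol (by positivity)
    _ = ENNReal.ofReal ((S.card : ℝ) ^ (1 / p)) := by
        rw [← ENNReal.ofReal_natCast, ENNReal.ofReal_rpow_of_nonneg (by positivity) (by positivity)]

/-- The (real) integrand of the trilinear Hilbert transform of three bump sums. -/
noncomputable def hker (S₁ S₂ S₃ : Finset ℤ) (x t : ℝ) : ℝ :=
  F S₁ (x - t) * F S₂ (x - 2 * t) * F S₃ (x - 3 * t) / t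

section

variable {S₁ S₂ S₃ : Finset ℤ} {L : ℝ}

theorem hker_supp (hsep : ∀ s₁ ∈ S₁, ∀ s₂ ∈ S₂, (1 : ℝ) ≤ (s₁ : ℝ) - s₂ ∧ (s₁ : ℝ) - s₂ ≤ L)
    {x t : ℝ} (h : hker S₁ S₂ S₃ x t ≠ 0) : 1 / 2 < t ∧ t < L + 1 / 2 := by
  unfold hker at h
  have h1 : F S₁ (x - t) ≠ 0 := by
    intro h0; apply h; simp [h0]
  have h2 : F S₂ (x - 2 * t) ≠ 0 := by
    intro h0; apply h; simp [h0]
  obtain ⟨s₁, hs₁, e₁⟩ := exists_of_F_ne_zero h1
  obtain ⟨s₂, hs₂, e₂⟩ := exists_of_F_ne_zero h2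
  obtain ⟨a, b⟩ := hsep s₁ hs₁ s₂ hs₂
  rw [abs_lt] at e₁ e₂
  constructor <;> linarith [e₁.1, e₁.2, e₂.1, e₂.2]

theorem hker_nonneg (hsep : ∀ s₁ ∈ S₁, ∀ s₂ ∈ S₂, (1 : ℝ) ≤ (s₁ : ℝ) - s₂ ∧ (s₁ : ℝ) - s₂ ≤ L)
    (x t : ℝ) : 0 ≤ hker S₁ S₂ S₃ x t := by
  by_cases h : hker S₁ S₂ S₃ x t = 0
  · rw [h]
  · have ht := (hker_supp hsep h).1
    unfold hker
    have := F_nonneg S₁ (x - t)
    have := F_nonneg S₂ (x - 2 * t)
    have := F_nonneg S₃ (x - 3 * t)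
    have : 0 < t := by linarith
    positivity

theorem hker_le_two (hsep : ∀ s₁ ∈ S₁, ∀ s₂ ∈ S₂, (1 : ℝ) ≤ (s₁ : ℝ) - s₂ ∧ (s₁ : ℝ) - s₂ ≤ L)
    (x t : ℝ) : hker S₁ S₂ S₃ x t ≤ 2 := by
  by_cases h : hker S₁ S₂ S₃ x t = 0
  · rw [h]; norm_num
  · have ht := (hker_supp hsep h).1
    unfold hker
    have ht0 : 0 < t := by linarith
    rw [div_le_iff₀ ht0]
    have h1 : F S₁ (x - t) * F S₂ (x - 2 * t) * F S₃ (x - 3 * t) ≤ 1 * 1 * 1 := by
      apply mul_le_mul (mul_le_mul (F_le_one _ _) (F_le_one _ _) (F_nonneg _ _) zero_le_one)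
        (F_le_one _ _) (F_nonneg _ _) (by norm_num)
    linarith

theorem hker_measurable (x : ℝ) : Measurable (hker S₁ S₂ S₃ x) := by
  unfold hker
  have c1 := (F_continuous S₁).measurable
  have c2 := (F_continuous S₂).measurable
  have c3 := (F_continuous S₃).measurable
  fun_prop

theorem hker_integrable
    (hsep : ∀ s₁ ∈ S₁, ∀ s₂ ∈ S₂, (1 : ℝ) ≤ (s₁ : ℝ) - s₂ ∧ (s₁ : ℝ) - s₂ ≤ L) (x : ℝ) :
    Integrable (hker S₁ S₂ S₃ x) := by
  have hg : Integrable ((Set.Icc (1 / 2 : ℝ) (L + 1 / 2)).indicator (fun _ => (2 : ℝ))) := by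
    apply IntegrableOn.integrable_indicator _ measurableSet_Icc
    exact integrableOn_const (by simp)
  refine hg.mono' (hker_measurable x).aestronglyMeasurable (Eventually.of_forall fun t => ?_)
  rw [Real.norm_of_nonneg (hker_nonneg hsep x t)]
  by_cases h : hker S₁ S₂ S₃ x t = 0
  · rw [h]; exact Set.indicator_nonneg (fun _ _ => by norm_num) _
  · have ht := hker_supp hsep h
    have hmem : t ∈ Set.Icc (1 / 2 : ℝ) (L + 1 / 2) := ⟨ht.1.le, ht.2.le⟩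
    rw [Set.indicator_of_mem hmem]
    exact hker_le_two hsep x t

theorem truncT_bumpSum
    (hsep : ∀ s₁ ∈ S₁, ∀ s₂ ∈ S₂, (1 : ℝ) ≤ (s₁ : ℝ) - s₂ ∧ (s₁ : ℝ) - s₂ ≤ L)
    {ε R : ℝ} (hε : ε ≤ 1 / 2) (hR : L + 1 / 2 ≤ R) (x : ℝ) :
    truncT (bumpSum S₁) (bumpSum S₂) (bumpSum S₃) ε R x
      = ((∫ t, hker S₁ S₂ S₃ x t : ℝ) : ℂ) := by
  unfold truncT
  have e1 : ∀ t : ℝ, bumpSum S₁ (x - t) * bumpSum S₂ (x - 2 * t) * bumpSum S₃ (x - 3 * t) / (t : ℂ)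
      = ((hker S₁ S₂ S₃ x t : ℝ) : ℂ) := by
    intro t
    simp only [bumpSum_apply, hker]
    push_cast
    ring
  simp_rw [e1]
  rw [setIntegral_eq_integral_of_forall_compl_eq_zero]
  · exact integral_complex_ofReal
  intro t ht
  by_contra hne
  have hne' : hker S₁ S₂ S₃ x t ≠ 0 := by
    intro h0; apply hne; simp [h0]
  have hs := hker_supp hsep hne'
  apply ht
  have ht0 : 0 < t := by linarith [hs.1]
  show ε < |t| ∧ |t| < R
  rw [abs_of_pos ht0]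
  constructor <;> linarith [hs.1, hs.2]

theorem triHT_bumpSum
    (hsep : ∀ s₁ ∈ S₁, ∀ s₂ ∈ S₂, (1 : ℝ) ≤ (s₁ : ℝ) - s₂ ∧ (s₁ : ℝ) - s₂ ≤ L) (x : ℝ) :
    triHT (bumpSum S₁) (bumpSum S₂) (bumpSum S₃) x = ((∫ t, hker S₁ S₂ S₃ x t : ℝ) : ℂ) := by
  unfold triHT
  apply Tendsto.limUnder_eq
  apply tendsto_const_nhds.congr'
  have h1 : Set.Ioo (0 : ℝ) (1 / 2) ∈ 𝓝[>] (0 : ℝ) := Ioo_mem_nhdsGT (by norm_num)
  have h2 : Set.Ici (L + 1 / 2) ∈ (atTop : Filter ℝ) := Ici_mem_atTop _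
  filter_upwards [prod_mem_prod h1 h2] with P hP
  exact (truncT_bumpSum hsep hP.1.2.le hP.2 x).symm

theorem integral_hker_ge
    (hsep : ∀ s₁ ∈ S₁, ∀ s₂ ∈ S₂, (1 : ℝ) ≤ (s₁ : ℝ) - s₂ ∧ (s₁ : ℝ) - s₂ ≤ L)
    {x₀ t₀ : ℤ} (h1 : x₀ - t₀ ∈ S₁) (h2 : x₀ - 2 * t₀ ∈ S₂) (h3 : x₀ - 3 * t₀ ∈ S₃)
    {x : ℝ} (hx : |x - x₀| ≤ 1 / 32) :
    1 / (16 * (L + 1)) ≤ ∫ t, hker S₁ S₂ S₃ x t := by
  have hsp := hsep _ h1 _ h2
  have ht₀ : (1 : ℝ) ≤ t₀ ∧ (t₀ : ℝ) ≤ L := by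
    have : ((x₀ - t₀ : ℤ) : ℝ) - ((x₀ - 2 * t₀ : ℤ) : ℝ) = t₀ := by push_cast; ring
    rw [this] at hsp
    exact hsp
  have hL : 0 < L + 1 := by linarith [ht₀.1, ht₀.2]
  set J : Set ℝ := Set.Icc ((t₀ : ℝ) - 1 / 32) (t₀ + 1 / 32) with hJ
  have hJm : MeasurableSet J := measurableSet_Icc
  have hJvol : volume.real J = 1 / 16 := by
    rw [hJ, Real.volume_real_Icc]
    rw [max_eq_left (by linarith)]
    ring
  have hlow : ∀ t ∈ J, 1 / (L + 1) ≤ hker S₁ S₂ S₃ x t := by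
    intro t ht
    rw [abs_le] at hx
    have a1 : 1 ≤ F S₁ (x - t) := one_le_F h1 (by
      rw [abs_le]; push_cast; constructor <;> linarith [ht.1, ht.2, hx.1, hx.2])
    have a2 : 1 ≤ F S₂ (x - 2 * t) := one_le_F h2 (by
      rw [abs_le]; push_cast; constructor <;> linarith [ht.1, ht.2, hx.1, hx.2])
    have a3 : 1 ≤ F S₃ (x - 3 * t) := one_le_F h3 (by
      rw [abs_le]; push_cast; constructor <;> linarith [ht.1, ht.2, hx.1, hx.2])
    have ht0 : 0 < t := by linarith [ht.1, ht₀.1]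
    have htL : t ≤ L + 1 := by linarith [ht.2, ht₀.2]
    unfold hker
    have hprod : 1 ≤ F S₁ (x - t) * F S₂ (x - 2 * t) * F S₃ (x - 3 * t) := by
      have := mul_le_mul a1 a2 zero_le_one (by linarith)
      have := mul_le_mul this a3 zero_le_one (by nlinarith)
      simpa using this
    calc 1 / (L + 1) ≤ 1 / t := one_div_le_one_div_of_le ht0 htL
      _ ≤ _ := by gcongr
  have hint := hker_integrable (S₃ := S₃) hsep x
  calc 1 / (16 * (L + 1)) = 1 / (L + 1) * volume.real J := by rw [hJvol]; field_simp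
    _ ≤ ∫ t in J, hker S₁ S₂ S₃ x t :=
        setIntegral_ge_of_const_le_real hJm (by rw [hJ, Real.volume_Icc]; exact ENNReal.ofReal_ne_top) hlow
          hint.integrableOn
    _ ≤ ∫ t, hker S₁ S₂ S₃ x t :=
        setIntegral_le_integral hint (Eventually.of_forall fun t => hker_nonneg hsep x t)

/-- **Transfer lemma.** Boundedness of `T` forces a counting inequality for finite sets of
integers. -/
theorem transfer {p₁ p₂ p₃ r : ℝ} (hp₁ : 0 < p₁) (hp₂ : 0 < p₂) (hp₃ : 0 < p₃) (hr : 0 < r)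
    {C : ℝ≥0}
    (hC : ∀ f₁ f₂ f₃ : 𝓢(ℝ, ℂ),
      eLpNorm (triHT f₁ f₂ f₃) (ENNReal.ofReal r) volume ≤
        C * eLpNorm f₁ (ENNReal.ofReal p₁) volume * eLpNorm f₂ (ENNReal.ofReal p₂) volume
          * eLpNorm f₃ (ENNReal.ofReal p₃) volume)
    (X : Finset ℤ) (hL : 0 ≤ L)
    (hsep : ∀ s₁ ∈ S₁, ∀ s₂ ∈ S₂, (1 : ℝ) ≤ (s₁ : ℝ) - s₂ ∧ (s₁ : ℝ) - s₂ ≤ L)
    (hcov : ∀ x ∈ X, ∃ t : ℤ, x - t ∈ S₁ ∧ x - 2 * t ∈ S₂ ∧ x - 3 * t ∈ S₃) :
    (1 / (16 * (L + 1))) * ((X.card : ℝ) / 16) ^ (1 / r) ≤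
      C * (S₁.card : ℝ) ^ (1 / p₁) * (S₂.card : ℝ) ^ (1 / p₂) * (S₃.card : ℝ) ^ (1 / p₃) := by
  set c : ℝ := 1 / (16 * (L + 1)) with hc
  have hc0 : 0 ≤ c := by positivity
  set E : Set ℝ := ⋃ x₀ ∈ X, Set.Icc (((x₀ : ℤ) : ℝ) - 1 / 32) (x₀ + 1 / 32) with hEdef
  have hE : MeasurableSet E := Finset.measurableSet_biUnion _ (fun s _ => measurableSet_Icc)
  have h1 : ∀ x, ‖E.indicator (fun _ => c) x‖
      ≤ ‖triHT (bumpSum S₁) (bumpSum S₂) (bumpSum S₃) x‖ := by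
    intro x
    by_cases hx : x ∈ E
    · rw [Set.indicator_of_mem hx, triHT_bumpSum hsep, Complex.norm_real,
        Real.norm_of_nonneg hc0]
      simp only [hEdef, Set.mem_iUnion] at hx
      obtain ⟨x₀, hx₀, hxx⟩ := hx
      obtain ⟨t₀, a1, a2, a3⟩ := hcov x₀ hx₀
      have hxabs : |x - x₀| ≤ 1 / 32 := by
        rw [abs_le]; constructor <;> linarith [hxx.1, hxx.2]
      exact (integral_hker_ge hsep a1 a2 a3 hxabs).trans (le_abs_self _)
    · rw [Set.indicator_of_notMem hx, norm_zero]; exact norm_nonneg _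
  have hvol : volume E = ENNReal.ofReal ((X.card : ℝ) / 16) := by
    rw [hEdef, measure_biUnion_finset]
    · have : ∀ x₀ ∈ X, volume (Set.Icc (((x₀ : ℤ) : ℝ) - 1 / 32) (x₀ + 1 / 32))
          = ENNReal.ofReal (1 / 16) := by
        intro x₀ _
        rw [Real.volume_Icc]; congr 1; ring
      rw [Finset.sum_congr rfl this, Finset.sum_const, nsmul_eq_mul, ← ENNReal.ofReal_natCast,
        ← ENNReal.ofReal_mul (by positivity)]
      congr 1; ring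
    · intro a _ b _ hab
      rw [Function.onFun, Set.disjoint_left]
      intro y hya hyb
      have h1 : (1 : ℝ) ≤ |(a : ℝ) - b| := by
        have : (1 : ℤ) ≤ |a - b| := Int.one_le_abs (sub_ne_zero.2 hab)
        exact_mod_cast this
      have h2 : |(a : ℝ) - b| ≤ 1 / 16 := by
        rw [abs_le]; constructor <;> linarith [hya.1, hya.2, hyb.1, hyb.2]
      linarith
    · intro x₀ _; exact measurableSet_Icc
  have hr0 : ENNReal.ofReal r ≠ 0 := by simpa using hr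
  have hlow : ENNReal.ofReal (c * ((X.card : ℝ) / 16) ^ (1 / r))
      ≤ eLpNorm (triHT (bumpSum S₁) (bumpSum S₂) (bumpSum S₃)) (ENNReal.ofReal r) volume := by
    calc ENNReal.ofReal (c * ((X.card : ℝ) / 16) ^ (1 / r))
        = ‖c‖ₑ * volume E ^ (1 / (ENNReal.ofReal r).toReal) := by
          rw [ENNReal.toReal_ofReal hr.le, hvol, ENNReal.ofReal_mul hc0,
            ENNReal.ofReal_rpow_of_nonneg (by positivity) (by positivity),
            Real.enorm_eq_ofReal hc0]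
      _ = eLpNorm (E.indicator (fun _ => c)) (ENNReal.ofReal r) volume :=
          (eLpNorm_indicator_const hE hr0 ENNReal.ofReal_ne_top).symm
      _ ≤ _ := eLpNorm_mono h1
  have hup := hC (bumpSum S₁) (bumpSum S₂) (bumpSum S₃)
  have hup2 : (C : ℝ≥0∞) * eLpNorm (bumpSum S₁) (ENNReal.ofReal p₁) volume
      * eLpNorm (bumpSum S₂) (ENNReal.ofReal p₂) volume
      * eLpNorm (bumpSum S₃) (ENNReal.ofReal p₃) volume
      ≤ ENNReal.ofReal (C * (S₁.card : ℝ) ^ (1 / p₁) * (S₂.card : ℝ) ^ (1 / p₂)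
          * (S₃.card : ℝ) ^ (1 / p₃)) := by
    rw [ENNReal.ofReal_mul (by positivity), ENNReal.ofReal_mul (by positivity),
      ENNReal.ofReal_mul (by positivity), ENNReal.ofReal_coe_nnreal]
    gcongr
    · exact eLpNorm_bumpSum_le S₁ hp₁
    · exact eLpNorm_bumpSum_le S₂ hp₂
    · exact eLpNorm_bumpSum_le S₃ hp₃
  have := (hlow.trans hup).trans hup2
  rwa [ENNReal.ofReal_le_ofReal_iff (by positivity)] at this

end

end Vale.Agent.Lib.P141
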